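import Vale.Agent.P139.R3.H156.ZOF

/-!
# P139: almost sure global existence around every smooth profile, and a zero-one law

Notation (files P139/A/Defs and P139/R3/H156/EPDefs): `datum g α` is the Gaussian datum,
`lifespan d p k a` the lifespan in `H^k` of the solution with datum `a`, `StdFamily P g` says
that the `g n` are independent standard complex Gaussians on the probability space `(Ω, P)`,
`Profile α v` is `∑ (1+|n|²)^α |v n|² < ∞` and `ratSeq r` is the trigonometric polynomial with
rational coefficients `r`.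
-/

open Set Filter Topology MeasureTheory ProbabilityTheory
open scoped NNReal ENNReal

namespace Vale.Agent.Results.P139.EveryProfile

open Vale.Agent.P139.A Vale.Agent.P139.R3.H156

theorem result :
    -- (1) what holds almost surely for the Gaussian datum holds almost surely for the
    -- Gaussian datum plus any independent random profile in `H^α`
    (∀ (d : ℕ) (α : ℝ) (A : Set ((Fin d → ℤ) → ℂ)),
      (∀ (Ω : Type) [MeasurableSpace Ω] (P : Measure Ω) (g : (Fin d → ℤ) → Ω → ℂ),
        StdFamily P g → ∀ᵐ ω ∂P, datum g α ω ∈ A) →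
      ∀ (Ω : Type) [MeasurableSpace Ω] (P : Measure Ω) (g : (Fin d → ℤ) → Ω → ℂ)
        (V : Ω → (Fin d → ℤ) → ℂ), StdFamily P g → Measurable V →
        IndepFun V (fun ω n => g n ω) P → (∀ᵐ ω ∂P, Profile α (V ω)) →
        ∀ᵐ ω ∂P, (fun n => V ω n + datum g α ω n) ∈ A) ∧
    -- (2) for each single profile `v` in `H^α`, lifespan at least `S` almost surely for the
    -- datum is equivalent to the same for `v +` datum (`S = ∞`: global existence)
    (∀ (d p k : ℕ) (α : ℝ) (S : ℝ≥0∞) (v : (Fin d → ℤ) → ℂ), Profile α v →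
      ((∀ (Ω : Type) [MeasurableSpace Ω] (P : Measure Ω) (g : (Fin d → ℤ) → Ω → ℂ),
          StdFamily P g → ∀ᵐ ω ∂P, S ≤ lifespan d p k (datum g α ω)) ↔
        (∀ (Ω : Type) [MeasurableSpace Ω] (P : Measure Ω) (g : (Fin d → ℤ) → Ω → ℂ),
          StdFamily P g →
            ∀ᵐ ω ∂P, S ≤ lifespan d p k (fun n => v n + datum g α ω n)))) ∧
    -- (3) then, for any countable set `C` of profiles, almost surely all `v + r + datum` with
    -- `v ∈ C` and `r` a rational trigonometric polynomial have lifespan at least `S`, and the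
    -- `r + datum` are dense in `H^k`
    (∀ (d p k : ℕ) (α : ℝ) (S : ℝ≥0∞), (k : ℝ) + d / 2 < α →
      (∀ (Ω : Type) [MeasurableSpace Ω] (P : Measure Ω) (g : (Fin d → ℤ) → Ω → ℂ),
        StdFamily P g → ∀ᵐ ω ∂P, S ≤ lifespan d p k (datum g α ω)) →
      ∀ C : Set ((Fin d → ℤ) → ℂ), C.Countable → (∀ v ∈ C, Profile α v) →
      ∀ (Ω : Type) [MeasurableSpace Ω] (P : Measure Ω) (g : (Fin d → ℤ) → Ω → ℂ),
        StdFamily P g → ∀ᵐ ω ∂P,
          (∀ v ∈ C, ∀ r : (Fin d → ℤ) →₀ ℚ × ℚ,
            S ≤ lifespan d p k (fun n => v n + ratSeq r n + datum g α ω n)) ∧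
          ∀ a : (Fin d → ℤ) → ℂ, MemSobolev k a → ∀ δ : ℝ, 0 < δ →
            ∃ r : (Fin d → ℤ) →₀ ℚ × ℚ,
              MemSobolev k (fun n => ratSeq r n + datum g α ω n - a n) ∧
              sobolevSq k (fun n => ratSeq r n + datum g α ω n - a n) < δ) ∧
    -- (4) zero-one law, odd powers `2 m + 1`, `2 k > d`: the almost sure statement
    -- (lifespan at least `S`) fails if and only if, for every countable set `C` of profiles,
    -- almost surely for each `v ∈ C` some rational trigonometric polynomial `r` makes the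
    -- lifespan of `v + r + datum` smaller than `S` (`S = ∞`: finite time blow-up)
    (∀ (d k m : ℕ) (α : ℝ) (S : ℝ≥0∞), d < 2 * k →
      ((¬ ∀ (Ω : Type) [MeasurableSpace Ω] (P : Measure Ω) (g : (Fin d → ℤ) → Ω → ℂ),
          StdFamily P g → ∀ᵐ ω ∂P, S ≤ lifespan d (2 * m + 1) k (datum g α ω)) ↔
        ∀ C : Set ((Fin d → ℤ) → ℂ), C.Countable → (∀ v ∈ C, Profile α v) →
          ∀ (Ω : Type) [MeasurableSpace Ω] (P : Measure Ω) (g : (Fin d → ℤ) → Ω → ℂ),
            StdFamily P g → ∀ᵐ ω ∂P, ∀ v ∈ C, ∃ r : (Fin d → ℤ) →₀ ℚ × ℚ,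
              lifespan d (2 * m + 1) k (fun n => v n + ratSeq r n + datum g α ω n) < S)) := by
  refine ⟨?_, ?_, ?_, fun d k m α S hk => lifespan_zo hk α S⟩
  · intro d α A h0 Ω _ P g V hg hV hind hs
    exact transfer A h0 hg hV hind hs
  · intro d p k α S v hv
    constructor
    · intro h Ω _ P g hg
      exact transfer_det {a | S ≤ lifespan d p k a} h hg hv
    · intro h Ω _ P g hg
      exact transfer_conv {a | S ≤ lifespan d p k a} hv h hg
  · intro d p k α S hα h C hC hCv Ω _ P g hg
    have := hg.prob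
    have h1 : ∀ᵐ ω ∂P, ∀ v ∈ C, ∀ r : (Fin d → ℤ) →₀ ℚ × ℚ,
        S ≤ lifespan d p k (fun n => v n + ratSeq r n + datum g α ω n) := by
      rw [ae_ball_iff hC]
      intro v hv
      rw [ae_all_iff]
      intro r
      exact transfer_det {a | S ≤ lifespan d p k a} h hg
        (profile_add (hCv v hv) (profile_ratSeq α r))
    filter_upwards [h1, ae_mem P g hg.meas hg.law hα] with ω hω hm
    refine ⟨hω, fun a ha δ hδ => ?_⟩
    have hd : MemSobolev k (fun n => datum g α ω n - a n) := memSobolev_sub hm ha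
    obtain ⟨r, hr⟩ := exists_rat_close hd hδ
    refine ⟨r, ?_, ?_⟩
    · simpa only [add_sub_assoc] using mem_ratSeq_add hd r
    · simpa only [add_sub_assoc] using hr

end Vale.Agent.Results.P139.EveryProfile
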