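import Vale.Agent.P139.R3.H36.Mono

open Set MeasureTheory ProbabilityTheory
open scoped ENNReal

namespace Vale.Agent.Results.P139.GenericDichotomy

open Vale.Agent.P139.A Vale.Agent.P139.R3.H36

/-- Let `d ≥ 2` and `p` odd. There are sets `Z k ⊆ ℝ²` of values of (mass, energy), `2k > d`, with
the following properties.
1. `Z k` is closed, and for generic `a` in `H^k(T^d)` with mass and energy outside `Z k` there is a
   solution `u ∈ C(ℝ; H^k)` with `u 0 = a`.
2. Let `O ⊆ ℝ²` be open. If `O` meets `Z k`, then for every `δ > 0` there is a nonempty open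
   subset of `H^k` whose elements have (mass, energy) in `O` and lifespan at most `δ`, and, for
   every `β > k + d/2`, `P((mass, energy)(u_0) ∈ O, T*_α ≤ δ) ≥ exp(-K^α)` for all `α ≥ β`, with a
   constant `K > 1` depending only on `d, p, k, O, δ, β`.
3. Conversely, if solutions in `C(ℝ; H^k)` exist for generic `a` with (mass, energy) in `O`, then
   `O` does not meet `Z k`.
4. For every nonempty open `G ⊆ H^k` and every `β > k + d/2` there is `K > 1` with
   `P(u_0 ∈ G) ≥ exp(-K^α)` for all `α ≥ β`; and `P(T*_α ≥ T) > 0` for all `T` and `α ≥ β`.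
5. The lifespans in `H^k` and `H^l`, `l ≥ k`, of a datum in `H^l` are equal.
6. `Z k ⊆ Z l` for `l ≥ k`.
7. For generic `a` in `C^∞(T^d)` with (mass, energy) outside the closure of the union of the
   `Z k`, there is a solution `u` with `u 0 = a` which lies in `C(ℝ; H^l)` for every `l`. -/
theorem result (d p : ℕ) (hd : 2 ≤ d) (hp : Odd p) :
    ∃ Z : ℕ → Set (ℝ × ℝ),
      (∀ k : ℕ, d < 2 * k →
        IsClosed (Z k) ∧
        Generic k (fun a : (Fin d → ℤ) → ℂ => (massOf a, energyOf p a) ∉ Z k →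
          ∃ u, IsGlobalSolution d p k u ∧ u 0 = a) ∧
        (∀ O : Set (ℝ × ℝ), IsOpen O → (O ∩ Z k).Nonempty → ∀ δ : ℝ, 0 < δ →
          (∃ G : Set ((Fin d → ℤ) → ℂ), IsOpenH k G ∧ G.Nonempty ∧ ∀ a ∈ G,
            (massOf a, energyOf p a) ∈ O ∧ lifespan d p k a ≤ ENNReal.ofReal δ) ∧
          ∀ β : ℝ, (k : ℝ) + d / 2 < β → ∃ K : ℝ, 1 < K ∧
            ∀ (Ω : Type) [MeasurableSpace Ω] (P : Measure Ω) [IsProbabilityMeasure P]
              (g : (Fin d → ℤ) → Ω → ℂ), (∀ n, Measurable (g n)) → iIndepFun g P →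
              (∀ n, P.map (g n) = stdComplexGaussian) → ∀ α : ℝ, β ≤ α →
              ENNReal.ofReal (Real.exp (-(K ^ α))) ≤
                P {ω | (massOf (datum g α ω), energyOf p (datum g α ω)) ∈ O ∧
                  lifespan d p k (datum g α ω) ≤ ENNReal.ofReal δ}) ∧
        (∀ O : Set (ℝ × ℝ), IsOpen O →
          Generic k (fun a : (Fin d → ℤ) → ℂ => (massOf a, energyOf p a) ∈ O →
            ∃ u, IsGlobalSolution d p k u ∧ u 0 = a) → O ∩ Z k = ∅) ∧
        (∀ β : ℝ, (k : ℝ) + d / 2 < β →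
          (∀ G : Set ((Fin d → ℤ) → ℂ), IsOpenH k G → G.Nonempty → ∃ K : ℝ, 1 < K ∧
            ∀ (Ω : Type) [MeasurableSpace Ω] (P : Measure Ω) [IsProbabilityMeasure P]
              (g : (Fin d → ℤ) → Ω → ℂ), (∀ n, Measurable (g n)) → iIndepFun g P →
              (∀ n, P.map (g n) = stdComplexGaussian) → ∀ α : ℝ, β ≤ α →
              ENNReal.ofReal (Real.exp (-(K ^ α))) ≤ P {ω | datum g α ω ∈ G}) ∧
          ∀ (Ω : Type) [MeasurableSpace Ω] (P : Measure Ω) [IsProbabilityMeasure P]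
            (g : (Fin d → ℤ) → Ω → ℂ), (∀ n, Measurable (g n)) → iIndepFun g P →
            (∀ n, P.map (g n) = stdComplexGaussian) → ∀ α : ℝ, β ≤ α → ∀ T : ℝ,
            0 < P {ω | ENNReal.ofReal T ≤ lifespan d p k (datum g α ω)}) ∧
        ∀ l : ℕ, k ≤ l → ∀ a : (Fin d → ℤ) → ℂ, MemSobolev l a →
          lifespan d p l a = lifespan d p k a) ∧
      (∀ k l : ℕ, d < 2 * k → k ≤ l → Z k ⊆ Z l) ∧
      GenericS (fun a : (Fin d → ℤ) → ℂ =>
        (massOf a, energyOf p a) ∉ closure (⋃ k ∈ {k : ℕ | d < 2 * k}, Z k) →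
        ∃ u, u 0 = a ∧ ∀ l : ℕ, IsGlobalSolution d p l u) := by
  obtain ⟨m, rfl⟩ := hp
  refine ⟨Zk m d, fun k hk => ?_, fun k l hk hkl => Zk_mono hk (by omega) hkl,
    genericS_off m d⟩
  have hk2 : 2 ≤ k := by omega
  refine ⟨isClosed_Zk m d k, generic_off hk (by omega) m, fun O hO hne δ hδ => ?_,
    fun O hO h => zero_of_generic hk hk2 hO h, fun β hβ => ⟨fun G hG hne => charge_unif hβ hG hne,
    fun Ω _ P _ g hm hind hg α hα T => charge_long P g hm hind hg hk m T (hβ.trans_le hα)⟩,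
    fun l hl a ha => (Vale.Agent.P139.R3.H156.lifespan_eq hk hl ha).symm⟩
  obtain ⟨G, hG, hGn, hs⟩ := short_near (m := m) hk hk2 hO hne hδ
  refine ⟨⟨G, hG, hGn, hs⟩, fun β hβ => ?_⟩
  obtain ⟨K, hK, h⟩ := charge_unif hβ hG hGn
  exact ⟨K, hK, fun Ω _ P _ g hm hind hg α hα => (h Ω P g hm hind hg α hα).trans
    (measure_mono fun ω hω => hs _ hω)⟩

end Vale.Agent.Results.P139.GenericDichotomy
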