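import Vale.Agent.P139.R3.H39W.Sizes

open Set MeasureTheory ProbabilityTheory
open scoped ENNReal

namespace Vale.Agent.Results.P139.GrowthTrichotomy

open Vale.Agent.P139.A Vale.Agent.P139.R3.H36 Vale.Agent.P139.R3.H39W

/-- Let `p` be odd and `2k > d`. The Wiener norm `∑ |a_n|` and the norms of `H^s(T^d)`,
`d/2 < s ≤ k`, are sizes on `H^k`. Let `ν` be any size and `φ ≥ 0` any function on `[0,∞)` which is
bounded on bounded sets.
1. Either (I) generic data of `H^k(T^d)` outgrow `φ` in both time directions, or (II) for some `C`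
   there is a nonempty open set of data with `T* = ∞` and `ν(u(t)) ≤ C φ(t)` for all `t ≥ 0`, and
   then `P(T*_α = ∞, ν(u(t)) ≤ C φ(t) for all t ≥ 0) > 0` for every real `α > k + d/2`.
2. Not both.
3. If `P(T*_α = ∞) = 0` for one `α > k + d/2`, then (I).
4. One of the following holds: generic `a` in `H^k` have a solution `u ∈ C(ℝ; H^k)`, `u 0 = a`,
   such that for every `C` some `t ≥ 0` has `ν(u(t)) > C φ(t)` and some `t ≥ 0` has
   `ν(u(-t)) > C φ(t)`; or `P(T*_α = ∞) > 0` for every `α > k + d/2`; or `P(T*_α ≤ δ) > 0` for every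
   `α > k + d/2` and every `δ > 0`. -/
theorem result (d p k : ℕ) (hp : Odd p) (hk : d < 2 * k) :
    (IsSize k (fun a : (Fin d → ℤ) → ℂ => ∑' n, ‖a n‖) ∧
      ∀ s : ℕ, d < 2 * s → s ≤ k →
        IsSize k (fun a : (Fin d → ℤ) → ℂ => Real.sqrt (sobolevSq s a))) ∧
    ∀ ν : ((Fin d → ℤ) → ℂ) → ℝ, IsSize k ν → ∀ φ : ℝ → ℝ, (∀ t, 0 ≤ φ t) →
      (∀ T, ∃ M, ∀ t ∈ Icc 0 T, φ t ≤ M) → ∀ (Ω : Type) [MeasurableSpace Ω] (P : Measure Ω)
      [IsProbabilityMeasure P] (g : (Fin d → ℤ) → Ω → ℂ), (∀ n, Measurable (g n)) →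
      iIndepFun g P → (∀ n, P.map (g n) = stdComplexGaussian) →
    (Generic k (Outgrow d p k ν φ) ∨
      ∃ (C : ℝ) (O : Set ((Fin d → ℤ) → ℂ)), IsOpenH k O ∧ O.Nonempty ∧
        (∀ a ∈ O, lifespan d p k a = ⊤ ∧ StaysBelow d p k ν (fun t => C * φ t) a) ∧
        ∀ α : ℝ, (k : ℝ) + d / 2 < α → 0 < P {ω | lifespan d p k (datum g α ω) = ⊤ ∧
          StaysBelow d p k ν (fun t => C * φ t) (datum g α ω)}) ∧
    ¬ (Generic k (Outgrow d p k ν φ) ∧
      ∃ (C : ℝ) (O : Set ((Fin d → ℤ) → ℂ)), IsOpenH k O ∧ O.Nonempty ∧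
        ∀ a ∈ O, StaysBelow d p k ν (fun t => C * φ t) a) ∧
    ((∃ α : ℝ, (k : ℝ) + d / 2 < α ∧ P {ω | lifespan d p k (datum g α ω) = ⊤} = 0) →
      Generic k (Outgrow d p k ν φ)) ∧
    (Generic k (fun a : (Fin d → ℤ) → ℂ => ∃ u, IsGlobalSolution d p k u ∧ u 0 = a ∧
        ∀ C : ℝ, (∃ t : ℝ, 0 ≤ t ∧ C * φ t < ν (u t)) ∧
          ∃ t : ℝ, 0 ≤ t ∧ C * φ t < ν (u (-t))) ∨
      (∀ α : ℝ, (k : ℝ) + d / 2 < α → 0 < P {ω | lifespan d p k (datum g α ω) = ⊤}) ∨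
      ∀ α : ℝ, (k : ℝ) + d / 2 < α → ∀ δ : ℝ, 0 < δ →
        0 < P {ω | lifespan d p k (datum g α ω) ≤ ENNReal.ofReal δ}) := by
  obtain ⟨m, rfl⟩ := hp
  refine ⟨⟨wiener_size hk, fun s hs hsk => sobolev_size hs hsk⟩, ?_⟩
  intro ν hν φ hφ hb Ω _ P _ g hm hind hg
  refine ⟨?_, ?_, ?_, ?_⟩
  · rcases alt hk m hν hφ hb with h | ⟨C, O, hO, hne, hs⟩
    · exact Or.inl h
    · exact Or.inr ⟨C, O, hO, hne, hs, fun α hα => pos_of_open P g hm hind hg hα hO hne hs⟩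
  · rintro ⟨h, C, O, hO, hne, hs⟩
    exact exclusive h hO hne hs
  · rintro ⟨α, hα, h0⟩
    rcases alt hk m hν hφ hb with h | ⟨C, O, hO, hne, hs⟩
    · exact h
    · exact absurd h0 (pos_of_open P g hm hind hg hα hO hne fun a ha => (hs a ha).1).ne'
  · rcases trichotomy hk m hν hφ hb with h | ⟨O, hO, hne, hs⟩ | h
    · exact Or.inl h
    · exact Or.inr (Or.inl fun α hα => pos_of_open P g hm hind hg hα hO hne hs)
    · exact Or.inr (Or.inr fun α hα δ hδ =>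
        charge_short P g hm hind hg hk hδ.le (h δ hδ) hα)

end Vale.Agent.Results.P139.GrowthTrichotomy
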