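import Vale.Agent.P139.R2.H999.StabC
import Vale.Agent.P139.R2.H999.Fin2
import Vale.Agent.P139.R2.H556.Ham6

open Set MeasureTheory ProbabilityTheory
open scoped ENNReal

namespace Vale.Agent.Results.P139.SuperPolynomialLifespan

open Vale.Agent.P139.A

/-- Let `T_α = exp (α^{11/10})`, longer than every power of `1/ε`, `ε = 2^{-α/2}`.
(1) For all real `α ≥ α₁(d,p,k)`, outside an event of probability at most `exp (-α^{1/10})`: the
lifespan is at least `T_α`, and every solution stays up to the time `T_α` within squared `H^k`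
distance `2^{-α/3}` of the circle of the constants of modulus `|g_0|`.
(2) Almost surely the same holds simultaneously for all large real `α`. -/
theorem result (d p k : ℕ) (_hd : 1 ≤ d) (hp : Odd p) (hp3 : 3 ≤ p) (hk : d < 2 * k) :
    (∃ α₁ : ℝ, ∀ (Ω : Type) [MeasurableSpace Ω] (P : Measure Ω) [IsProbabilityMeasure P]
      (g : (Fin d → ℤ) → Ω → ℂ), (∀ n, Measurable (g n)) → iIndepFun g P →
      (∀ n, P.map (g n) = stdComplexGaussian) →
      ∀ α : ℝ, α₁ ≤ α →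
        P {ω | ¬ (ENNReal.ofReal (Real.exp (α ^ (11 / 10 : ℝ))) ≤ lifespan d p k (datum g α ω) ∧
          ∀ (T : ℝ) (u : ℝ → (Fin d → ℤ) → ℂ), IsSolution d p k T u → u 0 = datum g α ω →
            ∀ t ∈ Icc 0 T, t ≤ Real.exp (α ^ (11 / 10 : ℝ)) → ∃ w : ℂ, ‖w‖ = 1 ∧
              sobolevSq k (fun n => u t n - if n = 0 then w * g 0 ω else 0) ≤
                (2 : ℝ) ^ (-α / 3))} ≤
          ENNReal.ofReal (Real.exp (-α ^ (1 / 10 : ℝ)))) ∧
    (∀ (Ω : Type) [MeasurableSpace Ω] (P : Measure Ω) [IsProbabilityMeasure P]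
      (g : (Fin d → ℤ) → Ω → ℂ), (∀ n, Measurable (g n)) → iIndepFun g P →
      (∀ n, P.map (g n) = stdComplexGaussian) →
      ∀ᵐ ω ∂P, ∃ α₂ : ℝ, ∀ α : ℝ, α₂ ≤ α →
        ENNReal.ofReal (Real.exp (α ^ (11 / 10 : ℝ))) ≤ lifespan d p k (datum g α ω) ∧
          ∀ (T : ℝ) (u : ℝ → (Fin d → ℤ) → ℂ), IsSolution d p k T u → u 0 = datum g α ω →
            ∀ t ∈ Icc 0 T, t ≤ Real.exp (α ^ (11 / 10 : ℝ)) → ∃ w : ℂ, ‖w‖ = 1 ∧
              sobolevSq k (fun n => u t n - if n = 0 then w * g 0 ω else 0) ≤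
                (2 : ℝ) ^ (-α / 3)) := by
  obtain ⟨m, rfl⟩ := hp
  have hm : 1 ≤ m := by omega
  obtain ⟨α₀, hdet⟩ := Vale.Agent.P139.BN.stab_det (Vale.Agent.P139.BN.dynThm d)
    (Vale.Agent.P139.BN.R7.hamQ d) hm hk
  refine ⟨?_, fun Ω _ P _ g hm' _ hg => ?_⟩
  · obtain ⟨α₁, h⟩ := Vale.Agent.P139.BN.tail_of_good hm Vale.Agent.P139.BN.H999.nrTail hdet
    exact ⟨α₁, fun Ω _ P _ g hm' _ hg α hα => h Ω P g hm' hg α hα⟩
  · exact Vale.Agent.P139.BN.ae_of_good hm Vale.Agent.P139.BN.H999.nrTail hdet Ω P g hm' hg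

end Vale.Agent.Results.P139.SuperPolynomialLifespan
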